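import Vale.Agent.Lib.P038.SatK.I.P4_2.H
noncomputable section
namespace Vale.Agent.Lib.P038.SatK.I.P4_2.S0
open Vale.Agent.Lib.P038.Sat Vale.Agent.Lib.P038.SatK Vale.Agent.Lib.P038.SatK.I.P4_2
def b0 : List Nat := [nat_lit 703687441776663,nat_lit 578079242076700689,nat_lit 3459749693419044705,nat_lit 1730719288853020512,nat_lit 914828034048039,nat_lit 2307672639579242529,nat_lit 844476469739575,nat_lit 5189906049532051505,nat_lit 774124905431111,nat_lit 1154610431843778625,nat_lit 23621633373123257712912,nat_lit 33065213839578996424992,nat_lit 37790462344743839220016,nat_lit 1477855296880648]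
def p0 : List Nat := [nat_lit 4503599627378688,nat_lit 9007199254790144,nat_lit 13510798882136064,nat_lit 22520197160140805,nat_lit 31528495926550534,nat_lit 40536794692861960,nat_lit 368957399472327925765,nat_lit 405864401717164040198,nat_lit 442748882115572596748,nat_lit 7147630886925]
def o0 : List Nat := [nat_lit 13]
theorem ok : segCheck (Gen.gen sh_4_2_0_f (flP 4 2)) W M GT 4 0 1 H [b0] [] [p0] [o0] = true := by decide +kernel
theorem seg {τ : Nat → Bool} (hgen : ∀ t c, Gen.gen sh_4_2_0_f (flP 4 2) t = some c → holdsG τ c)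
  (hin : ∀ g, g < 0 → HL W (loc GT τ) (getB H g)) :
  ∀ g, 0 ≤ g → g < 1 → HL W (loc GT τ) (getB H g) :=
  segCheck_sound ok hgen hin
end Vale.Agent.Lib.P038.SatK.I.P4_2.S0
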